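import Vale.Agent.P159.T1.S.H112.P3b

/-!
P159, stage 2, the free square, part 3: the sum of the pieces.
-/

open Filter Topology MeasureTheory

namespace Vale.Agent.P159.T1.S.H112

open Vale.Agent.P159 Vale.Agent.P159.T1.D Vale.Agent.P159.T1.D.H469
open Vale.Agent.P159.T1.H711 (en_le Dir_nonneg' sh_inj sum_sh osc_sh)
open Vale.Agent.P159.T1.S.H459

lemma dr_off {g : Z2 → ℝ} {U : Finset Z2} (h : ∀ f, g f ≠ 0 → f ∈ U) {e : Bnd} (he : e ∉ bd U) :
    dr g e = 0 := by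
  have h1 : g (lf e) = 0 := by
    by_contra h0
    exact he (mem_bd_lf (h _ h0))
  have h2 : g (rt e) = 0 := by
    by_contra h0
    exact he (mem_bd_rt (h _ h0))
  simp [dr, h1, h2]

/-- the strip of an active piece lies in the square -/
lemma strip_in {A H k i : ℕ} (hA : 3 ≤ A) (hi : i + 1 + A ≤ H) {u : Z2} {U : Finset Z2}
    (hU : Has U (H * k) u) (f : Z2) (h1 : 0 ≤ f.1) (h2 : f.1 < ((k * 4 : ℕ) : ℤ)) (h3 : 0 ≤ f.2)
    (h4 : f.2 < ((k * H : ℕ) : ℤ)) : f + vp u k i ∈ U := by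
  have h5 : f + vp u k i = (f.1 + ((k * i : ℕ) : ℤ), f.2) + u := by
    unfold vp
    refine Prod.ext ?_ ?_
    · simp only [Prod.fst_add]
      ring
    · simp only [Prod.snd_add]
  rw [h5]
  have h6 : k * 4 + k * i ≤ H * k := by
    calc k * 4 + k * i = k * (i + 4) := by ring
      _ ≤ k * H := Nat.mul_le_mul_left k (by omega)
      _ = H * k := mul_comm _ _
  refine hU _ ?_ ?_ h3 ?_
  · simp only
    omega
  · simp only
    omega
  · simp only
    rw [mul_comm H k]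
    exact h4

/-- an active piece -/
lemma pc_act {ψ : ℝ × ℝ → ℝ} {D A H i j : ℕ} (hD : 1 ≤ D) (hH : H = D * A)
    (hd : ∀ z ∈ tsupport ψ, (1 / (D : ℝ) ≤ z.1 ∧ z.1 ≤ 1 - 1 / D) ∧
      1 / (D : ℝ) ≤ z.2 ∧ z.2 ≤ 1 - 1 / D) (hA : 1 ≤ A)
    {z : ℝ × ℝ} (hz : z ∈ tsupport (pc ψ H i j)) :
    (1 ≤ z.1 ∧ z.1 ≤ 3) ∧ (1 ≤ z.2 ∧ z.2 ≤ (H : ℝ) - A) ∧ (z.1 + i : ℝ) ≤ (H : ℝ) - A := by
  have hD0 : (0 : ℝ) < D := by exact_mod_cast hD
  have hA0 : (0 : ℝ) < A := by exact_mod_cast hA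
  have hHr : (H : ℝ) = D * A := by rw [hH]; push_cast; ring
  have hH0 : (0 : ℝ) < H := by rw [hHr]; positivity
  obtain ⟨⟨a1, a2⟩, a3, a4⟩ := pc_box hz
  obtain ⟨⟨b1, b2⟩, b3, b4⟩ := hd _ (pc_tsupport hz)
  simp only at b1 b2 b3 b4
  have key : ∀ s : ℝ, s / H ≤ 1 - 1 / D → s ≤ (H : ℝ) - A := by
    intro s h1
    rw [div_le_iff₀ hH0] at h1
    have h2 : (1 - 1 / (D : ℝ)) * H = (H : ℝ) - A := by
      rw [sub_mul, one_mul, hHr]
      field_simp
    linarith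
  have hj : (0 : ℝ) ≤ j := Nat.cast_nonneg _
  exact ⟨⟨a1, a2⟩, ⟨by linarith, key _ b4⟩, key _ b2⟩

/-- **the defect of one piece** -/
lemma piece {b : ℝ} (hY : 0 ≤ helicity b) {C κ : ℝ} (hC : 0 < C)
    (hS : ∀ φ : ℝ × ℝ → ℝ, ContDiff ℝ 2 φ → HasCompactSupport φ →
      ∀ W T m : ℕ, 1 ≤ W → 1 ≤ m → m ≤ T →
      (∀ z ∈ tsupport φ, 0 < z.1 ∧ z.1 < W ∧ 0 < z.2 ∧ z.2 < (T : ℝ) - m) →
      ∀ ε : ℝ, 0 < ε → ∃ k0 : ℕ, ∀ k ≥ k0, ∀ (u : Z2) (U : Finset Z2),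
        (∀ f : Z2, 0 ≤ f.1 → f.1 < ((k * W : ℕ) : ℤ) → 0 ≤ f.2 → f.2 < ((k * T : ℕ) : ℤ) →
          f + u ∈ U) →
        helicity b * Dir φ - C * (Dir φ + 1) * Real.exp (-(κ * m / W)) - ε ≤
          Vr b U (dr (H459.sq φ k u)))
    {ψ : ℝ × ℝ → ℝ} (h1 : ContDiff ℝ 2 ψ) {D A H : ℕ} (hD : 1 ≤ D) (hA : 3 ≤ A)
    (hH : H = D * A) (hd : ∀ z ∈ tsupport ψ, (1 / (D : ℝ) ≤ z.1 ∧ z.1 ≤ 1 - 1 / D) ∧
      1 / (D : ℝ) ≤ z.2 ∧ z.2 ≤ 1 - 1 / D) {i j : ℕ} {K : ℝ} (hK0 : 0 ≤ K)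
    (hK : Dir (pc ψ H i j) ≤ K) {ε2 ε1 η C2 : ℝ} (l : ℕ) (he2 : 0 < ε2) (he1 : 0 < ε1)
    (hη : 0 < η) (hC2 : 0 ≤ C2) :
    ∃ k0 : ℕ, ∀ k ≥ k0, ∀ (u : Z2) (U : Finset Z2), Has U (H * k) u →
      (∀ e, e ∉ bd U → dr (H459.sq (pc ψ H i j) k (vp u k i)) e = 0) ∧
      ∀ S : Finset Bnd, Df b (helicity b + ε2) C2 l U S
        (dr (H459.sq (pc ψ H i j) k (vp u k i))) ≤ ε2 * K + (helicity b + ε2 + C2) * η +
          C * (K + 1) * Real.exp (-(κ * ((A : ℝ) - 1) / 4)) + ε1 := by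
  have hR : 0 ≤ ε2 * K + (helicity b + ε2 + C2) * η +
      C * (K + 1) * Real.exp (-(κ * ((A : ℝ) - 1) / 4)) + ε1 := by
    have := Real.exp_pos (-(κ * ((A : ℝ) - 1) / 4))
    have h3 : 0 ≤ (helicity b + ε2 + C2) * η := mul_nonneg (by linarith) hη.le
    positivity
  rcases (tsupport (pc ψ H i j)).eq_empty_or_nonempty with h0 | hne
  · -- the piece vanishes
    have hz : ∀ z, pc ψ H i j z = 0 := by
      intro z
      by_contra hz
      have := subset_tsupport (pc ψ H i j) (Function.mem_support.2 hz)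
      rw [h0] at this
      exact this
    have hdr : ∀ k u, dr (H459.sq (pc ψ H i j) k u) = fun _ => 0 := by
      intro k u
      funext e
      simp [dr, H459.sq, smp, hz]
    refine ⟨0, fun k _ u U _ => ⟨fun e _ => by rw [hdr], fun S => ?_⟩⟩
    rw [hdr, Df_zero]
    exact hR
  · obtain ⟨z0, hz0⟩ := hne
    obtain ⟨⟨q1, q2⟩, ⟨q3, q4⟩, q5⟩ := pc_act hD hH hd (by omega) hz0
    have hi : i + 1 + A ≤ H := by
      have : ((i + 1 + A : ℕ) : ℝ) ≤ H := by push_cast; linarith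
      exact_mod_cast this
    have hmT : A - 1 ≤ H := by omega
    obtain ⟨k1, hk1⟩ := hS (pc ψ H i j) (pc_contDiff h1 H i j) (pc_compact ψ H i j) 4 H (A - 1)
      (by norm_num) (by omega) hmT (fun z hz => by
        obtain ⟨⟨r1, r2⟩, ⟨r3, r4⟩, -⟩ := pc_act hD hH hd (by omega) hz
        refine ⟨by linarith, by push_cast; linarith, by linarith, ?_⟩
        push_cast [Nat.cast_sub (by omega : 1 ≤ A)]
        linarith) ε1 he1
    obtain ⟨k2, hk2⟩ := en_le ((pc_contDiff h1 H i j).of_le (by norm_num)) (pc_compact ψ H i j) 0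
      l hη
    refine ⟨k1 + k2 + 1, fun k hk u U hU => ?_⟩
    have hkp : 0 < k := by omega
    have hk0 : (0 : ℝ) < k := by exact_mod_cast hkp
    have hsub := strip_in hA hi hU
    refine ⟨fun e he => dr_off (fun f hf => ?_) he, fun S => ?_⟩
    · -- the support
      have hmem : ((((f - vp u k i).1 : ℝ) + 0) / k, (((f - vp u k i).2 : ℝ) + 0) / k) ∈
          tsupport (pc ψ H i j) :=
        subset_tsupport _ (Function.mem_support.2 hf)
      obtain ⟨⟨r1, r2⟩, ⟨r3, r4⟩, -⟩ := pc_act hD hH hd (by omega) hmem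
      simp only [add_zero] at r1 r2 r3 r4
      have g1 : (((f - vp u k i).1 : ℤ) : ℝ) / k * k = (f - vp u k i).1 :=
        div_mul_cancel₀ _ hk0.ne'
      have g2 : (((f - vp u k i).2 : ℤ) : ℝ) / k * k = (f - vp u k i).2 :=
        div_mul_cancel₀ _ hk0.ne'
      have c1 : (0 : ℝ) ≤ ((f - vp u k i).1 : ℤ) := by
        rw [← g1]
        exact mul_nonneg (by linarith) hk0.le
      have c2 : (((f - vp u k i).1 : ℤ) : ℝ) < k * 4 := by
        rw [← g1, mul_comm]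
        exact mul_lt_mul_of_pos_left (by linarith) hk0
      have c3 : (0 : ℝ) ≤ ((f - vp u k i).2 : ℤ) := by
        rw [← g2]
        exact mul_nonneg (by linarith) hk0.le
      have hA0 : (3 : ℝ) ≤ A := by exact_mod_cast hA
      have c4 : (((f - vp u k i).2 : ℤ) : ℝ) < k * H := by
        rw [← g2, mul_comm]
        exact mul_lt_mul_of_pos_left (by linarith) hk0
      have := hsub (f - vp u k i) (by exact_mod_cast c1) (by push_cast; exact_mod_cast c2)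
        (by exact_mod_cast c3) (by push_cast; exact_mod_cast c4)
      rwa [sub_add_cancel] at this
    · have hVr := hk1 k (by omega) (vp u k i) U hsub
      obtain ⟨g1, g2⟩ := hk2 k (by omega)
        (S.map ⟨sh (-(vp u k i)), sh_inj (-(vp u k i))⟩)
      have hdr : dr (H459.sq (pc ψ H i j) k (vp u k i)) =
          fun e => dr (smp (pc ψ H i j) k 0) (sh (-(vp u k i)) e) := funext (dr_sq _ _ _)
      rw [← osc_sh, ← hdr] at g2
      rw [← sum_sh] at g1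
      have g1' : ∑ e ∈ S, dr (H459.sq (pc ψ H i j) k (vp u k i)) e ^ 2 ≤
          Dir (pc ψ H i j) + η := by
        rw [hdr]; exact g1
      have hex : -(κ * ((A - 1 : ℕ) : ℝ) / (4 : ℕ)) = -(κ * ((A : ℝ) - 1) / 4) := by
        push_cast [Nat.cast_sub (by omega : 1 ≤ A)]
        ring
      rw [hex] at hVr
      have hex0 := Real.exp_pos (-(κ * ((A : ℝ) - 1) / 4))
      unfold Df
      have k1 : (helicity b + ε2) * ∑ e ∈ S, dr (H459.sq (pc ψ H i j) k (vp u k i)) e ^ 2 ≤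
          (helicity b + ε2) * (Dir (pc ψ H i j) + η) :=
        mul_le_mul_of_nonneg_left g1' (by linarith)
      have k2 : C2 * osc l S (dr (H459.sq (pc ψ H i j) k (vp u k i))) ≤ C2 * η :=
        mul_le_mul_of_nonneg_left g2 hC2
      have k3 : ε2 * Dir (pc ψ H i j) ≤ ε2 * K := mul_le_mul_of_nonneg_left hK he2.le
      have k4 : C * (Dir (pc ψ H i j) + 1) * Real.exp (-(κ * ((A : ℝ) - 1) / 4)) ≤
          C * (K + 1) * Real.exp (-(κ * ((A : ℝ) - 1) / 4)) :=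
        mul_le_mul_of_nonneg_right (mul_le_mul_of_nonneg_left (by linarith) hC.le) hex0.le
      have k5 : (helicity b + ε2) * (Dir (pc ψ H i j) + η) + C2 * η =
          helicity b * Dir (pc ψ H i j) + ε2 * Dir (pc ψ H i j) +
            (helicity b + ε2 + C2) * η := by ring
      linarith

/-- the energy of the test function, lower bound -/
lemma en_ge {ψ : ℝ × ℝ → ℝ} (h1 : ContDiff ℝ 2 ψ) (h2 : HasCompactSupport ψ) {η : ℝ}
    (hη : 0 < η) : ∃ n0 : ℕ, ∀ n ≥ n0, ∀ (u : Z2) (S : Finset Bnd),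
      (∀ e, e ∉ S → dr (H459.sq ψ n u) e = 0) →
      Dir ψ - η ≤ ∑ e ∈ S, dr (H459.sq ψ n u) e ^ 2 := by
  obtain ⟨L0, hL⟩ := stmtLat ψ h1 h2 0
  obtain ⟨n0, hn0⟩ := hL L0 le_rfl 0 η hη
  refine ⟨n0, fun n hn u S hS => ?_⟩
  obtain ⟨a1, a2, -, -⟩ := hn0 n hn 0 (by simp) (by simp)
  have hdr : dr (H459.sq ψ n u) = fun e => dr (smp ψ n 0) (sh (-u) e) := funext (dr_sq ψ n u)
  have e1 : ∑ e ∈ S, dr (H459.sq ψ n u) e ^ 2 =
      ∑ e ∈ S.map ⟨sh (-u), sh_inj (-u)⟩, dr (smp ψ n 0) e ^ 2 := by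
    rw [hdr]
    exact sum_sh (-u) S _
  rw [e1]
  have e2 : ∑ e ∈ Sb L0 n, dr (smp ψ n 0) e ^ 2 ≤
      ∑ e ∈ S.map ⟨sh (-u), sh_inj (-u)⟩, dr (smp ψ n 0) e ^ 2 := by
    classical
    have e3 : ∑ e ∈ Sb L0 n, dr (smp ψ n 0) e ^ 2 =
        ∑ e ∈ (Sb L0 n).filter (fun e => e ∈ S.map ⟨sh (-u), sh_inj (-u)⟩),
          dr (smp ψ n 0) e ^ 2 := by
      rw [Finset.sum_filter]
      refine Finset.sum_congr rfl fun e _ => ?_
      split_ifs with h5
      · rfl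
      · have h6 : sh (-u) (sh u e) = e := by
          simp [sh]
        have h7 : dr (smp ψ n 0) e = 0 := by
          by_contra h8
          apply h5
          refine Finset.mem_map.2 ⟨sh u e, ?_, h6⟩
          by_contra h9
          have := hS _ h9
          rw [hdr] at this
          simp only [h6] at this
          exact h8 this
        rw [h7]
        ring
    rw [e3]
    refine Finset.sum_le_sum_of_subset_of_nonneg ?_ fun _ _ _ => sq_nonneg _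
    intro e he
    exact (Finset.mem_filter.1 he).2
  have := (abs_le.1 a2).1
  linarith

/-- a suitable number of strips -/
lemma choose_A {κ : ℝ} (hκ : 0 < κ) (D : ℕ) (hD : 1 ≤ D) {c δ : ℝ} (hc : 0 < c) (hδ : 0 < δ) :
    ∃ A : ℕ, 3 ≤ A ∧
      (((D * A : ℕ) : ℝ) ^ 2) ^ 2 * (c * Real.exp (-(κ * ((A : ℝ) - 1) / 4))) ≤ δ := by
  have hD0 : (0 : ℝ) < D := by exact_mod_cast hD
  have h1 := (isLittleO_pow_exp_pos_mul_atTop 4 (show 0 < κ / 4 by positivity))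
  set c0 : ℝ := δ / ((D : ℝ) ^ 4 * c * Real.exp (κ / 4)) with hc0
  have hc00 : 0 < c0 := by positivity
  have h2 := h1.def hc00
  have h3 := (tendsto_natCast_atTop_atTop (R := ℝ)).eventually h2
  obtain ⟨A, hA, hA3⟩ := (h3.and (eventually_ge_atTop 3)).exists
  refine ⟨A, hA3, ?_⟩
  rw [Real.norm_eq_abs, Real.norm_eq_abs, abs_of_nonneg (by positivity), Real.abs_exp] at hA
  have e1 : Real.exp (-(κ * ((A : ℝ) - 1) / 4)) = Real.exp (κ / 4) * (Real.exp (κ / 4 * A))⁻¹ := by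
    rw [← Real.exp_neg, ← Real.exp_add]
    congr 1
    ring
  have hE := Real.exp_pos (κ / 4 * A)
  have e2 : (((D * A : ℕ) : ℝ) ^ 2) ^ 2 * (c * Real.exp (-(κ * ((A : ℝ) - 1) / 4))) =
      (D : ℝ) ^ 4 * c * Real.exp (κ / 4) * ((A : ℝ) ^ 4 * (Real.exp (κ / 4 * A))⁻¹) := by
    rw [e1]
    push_cast
    ring
  rw [e2]
  have e3 : (A : ℝ) ^ 4 * (Real.exp (κ / 4 * A))⁻¹ ≤ c0 := by
    rw [← div_eq_mul_inv, div_le_iff₀ hE]
    exact hA
  calc (D : ℝ) ^ 4 * c * Real.exp (κ / 4) * ((A : ℝ) ^ 4 * (Real.exp (κ / 4 * A))⁻¹)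
      ≤ (D : ℝ) ^ 4 * c * Real.exp (κ / 4) * c0 := mul_le_mul_of_nonneg_left e3 (by positivity)
    _ = δ := by
        rw [hc0]
        field_simp

/-- **the free square, sides divisible by `H`** -/
theorem freeSqH {b : ℝ} (hb : 0 < b) (hY : 0 ≤ helicity b) (hUV : StmtUV) (hIn : StripIn b) :
    FreeSqH b := by
  classical
  obtain ⟨C, κ, hC, hκ, hS⟩ := hIn
  intro ψ h1 h2 h3 ε hε
  obtain ⟨D, hD, hd⟩ := room h2 h3
  obtain ⟨K, hK0, hK⟩ := pc_Dir h1 h2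
  have hD0 : (0 : ℝ) < D := by exact_mod_cast hD
  obtain ⟨A, hA, hAε⟩ := choose_A hκ D hD (c := C * (K + 1)) (δ := ε / 5) (by positivity)
    (by positivity)
  obtain ⟨H, hH⟩ : ∃ H : ℕ, H = D * A := ⟨_, rfl⟩
  rw [← hH] at hAε
  have hH1 : 1 ≤ H := by rw [hH]; exact Nat.mul_pos hD (by omega)
  have hHr : (1 : ℝ) ≤ H := by exact_mod_cast hH1
  obtain ⟨N, hN⟩ : ∃ N : ℝ, N = (H : ℝ) ^ 2 := ⟨_, rfl⟩
  have hN1 : 1 ≤ N := by rw [hN]; exact one_le_pow₀ hHr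
  rw [← hN] at hAε
  set ε2 : ℝ := ε / (5 * N ^ 2 * (K + 1)) with hε2
  have he2 : 0 < ε2 := by positivity
  obtain ⟨l, C2, hC2, hUV'⟩ := hUV b ε2 hb he2
  set η : ℝ := ε / (5 * N ^ 2 * (helicity b + ε2 + C2 + 1)) with hηd
  have hη : 0 < η := by
    have : 0 < helicity b + ε2 + C2 + 1 := by linarith
    positivity
  set ε1 : ℝ := ε / (5 * N ^ 2) with hε1
  have he1 : 0 < ε1 := by positivity
  choose k0 hk0 using fun p : ℕ × ℕ => piece hY hC hS h1 hD hA hH hd hK0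
    (hK H p.1 p.2 hH1) l he2 he1 hη hC2.le
  obtain ⟨n1, hn1⟩ := en_ge h1 h2 hη
  set I : Finset (ℕ × ℕ) := Finset.range H ×ˢ Finset.range H with hI
  refine ⟨H, hH1, ∑ p ∈ I, k0 p + n1 + 1, fun k hk u U hU => ?_⟩
  have hk1 : 1 ≤ k := by omega
  set B : ℕ × ℕ → Bnd → ℝ := fun p => dr (H459.sq (pc ψ H p.1 p.2) k (vp u k p.1)) with hB
  have hkp : ∀ p ∈ I, k0 p ≤ k := fun p hp =>
    (Finset.single_le_sum (f := k0) (fun _ _ => Nat.zero_le _) hp).trans (by omega)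
  have hB0 : ∀ p ∈ I, ∀ e, e ∉ bd U → B p e = 0 := fun p hp e he =>
    (hk0 p k (hkp p hp) u U hU).1 e he
  set δ : ℝ := ε2 * K + (helicity b + ε2 + C2) * η +
    C * (K + 1) * Real.exp (-(κ * ((A : ℝ) - 1) / 4)) + ε1 with hδ
  have hdf : ∀ p ∈ I, Df b (helicity b + ε2) C2 l U (bd U) (B p) ≤ δ := fun p hp =>
    (hk0 p k (hkp p hp) u U hU).2 (bd U)
  have hmain := Vr_sum_ge (fun B hB => hUV' U (bd U) B hB) hb.le I hB0 (δ := fun _ => δ) hdf
  have hsum : (fun e => ∑ p ∈ I, B p e) = dr (H459.sq ψ (H * k) u) := by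
    funext e
    have h5 : dr (H459.sq ψ (H * k) u) = dr fun f => ∑ p ∈ I,
        H459.sq (pc ψ H p.1 p.2) k (vp u k p.1) f := by
      congr 1
      funext f
      exact sq_pc hD (by omega) hH hk1 hd u f
    rw [h5, dr_sum]
  rw [hsum, Finset.sum_const, nsmul_eq_mul] at hmain
  have hcard : (I.card : ℝ) = N := by
    rw [hI, Finset.card_product, Finset.card_range, hN]
    push_cast
    ring
  rw [hcard] at hmain
  have hoff : ∀ e, e ∉ bd U → dr (H459.sq ψ (H * k) u) e = 0 := by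
    intro e he
    rw [← hsum]
    exact Finset.sum_eq_zero fun p hp => hB0 p hp e he
  have hen := hn1 (H * k) (by
    calc n1 ≤ k := by omega
      _ = 1 * k := (one_mul k).symm
      _ ≤ H * k := Nat.mul_le_mul_right k hH1) u (bd U) hoff
  have hNf : helicity b * ∑ e ∈ bd U, dr (H459.sq ψ (H * k) u) e ^ 2 ≤
      Nf (helicity b + ε2) C2 l (bd U) (dr (H459.sq ψ (H * k) u)) := by
    have h6 : 0 ≤ ∑ e ∈ bd U, dr (H459.sq ψ (H * k) u) e ^ 2 :=
      Finset.sum_nonneg fun _ _ => sq_nonneg _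
    have h7 := mul_nonneg hC2.le (osc_nonneg l (bd U) (dr (H459.sq ψ (H * k) u)))
    have h9 := mul_nonneg he2.le h6
    unfold Nf
    nlinarith
  have hen' : helicity b * (Dir ψ - η) ≤
      helicity b * ∑ e ∈ bd U, dr (H459.sq ψ (H * k) u) e ^ 2 :=
    mul_le_mul_of_nonneg_left hen hY
  -- the numbers
  have hN2 : 0 < N ^ 2 := by positivity
  have q1 : N ^ 2 * (ε2 * K) ≤ ε / 5 := by
    have : N ^ 2 * (ε2 * (K + 1)) = ε / 5 := by
      rw [hε2]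
      field_simp
    have h8 : N ^ 2 * (ε2 * K) ≤ N ^ 2 * (ε2 * (K + 1)) :=
      mul_le_mul_of_nonneg_left (mul_le_mul_of_nonneg_left (by linarith) he2.le) hN2.le
    linarith
  have q2 : N ^ 2 * ((helicity b + ε2 + C2 + 1) * η) = ε / 5 := by
    have : 0 < helicity b + ε2 + C2 + 1 := by linarith
    rw [hηd]
    field_simp
  have q3 : N ^ 2 * ε1 = ε / 5 := by
    rw [hε1]
    field_simp
  have q4 : N ^ 2 * ((helicity b + ε2 + C2) * η) ≤ ε / 5 := by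
    rw [← q2]
    exact mul_le_mul_of_nonneg_left (mul_le_mul_of_nonneg_right (by linarith) hη.le) hN2.le
  have q5 : helicity b * η ≤ ε / 5 := by
    have h8 : helicity b * η ≤ (helicity b + ε2 + C2 + 1) * η :=
      mul_le_mul_of_nonneg_right (by linarith) hη.le
    have h9 : 1 * ((helicity b + ε2 + C2 + 1) * η) ≤ N ^ 2 * ((helicity b + ε2 + C2 + 1) * η) :=
      mul_le_mul_of_nonneg_right (one_le_pow₀ hN1) (mul_nonneg (by linarith) hη.le)
    linarith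
  have q6 : N * (N * δ) = N ^ 2 * (ε2 * K) + N ^ 2 * ((helicity b + ε2 + C2) * η) +
      N ^ 2 * (C * (K + 1) * Real.exp (-(κ * ((A : ℝ) - 1) / 4))) + N ^ 2 * ε1 := by
    rw [hδ]
    ring
  have q7 : helicity b * (Dir ψ - η) = helicity b * Dir ψ - helicity b * η := by ring
  linarith

end Vale.Agent.P159.T1.S.H112
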