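import Vale.Agent.P159.T1.S.H112.P3a
import Vale.Agent.P159.T1.S.H112.P3c
import Vale.Agent.P159.T1.S.H459.Resc
import Vale.Agent.P159.T1.S.H934.Top
import Vale.Agent.P159.T1.H418.Rect
import Vale.Agent.P159.T1.H532.RLim
import Vale.Agent.P159.T1.D.H130.UFin
import Vale.Agent.P159.T1.D.H469.UV

/-!
P159, stage 2: the free square, and `StmtSV`, without hypotheses.
-/

open Filter Topology MeasureTheory

namespace Vale.Agent.P159.T1.S.H112

open Vale.Agent.P159 Vale.Agent.P159.T1.D

/-- the rectangle with one wired side -/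
theorem rl {b : ℝ} (hb : 0 < b) : RL b := by
  intro W T φ h1 h2 h3 ε hε
  exact T1.H532.rlim hb h1 h2 h3 (T1.H418.glb_rect hb h1 h2 h3) hε

theorem stripIn {b : ℝ} (hb : 0 < b) : StripIn b := stripIn_of hb (rl hb)

/-- **the free square** -/
theorem freeSq (b : ℝ) (hb : bCrit ≤ b) : H459.FreeSq b := by
  have h1 := T1.H934.pos_of_ge b hb
  have hY : 0 ≤ helicity b := le_trans (by have := Real.pi_pos; positivity) h1.2
  exact H459.freeSq_of h1.1 (freeSqH h1.1 hY (D.H469.uv_of_u D.stmtU) (stripIn h1.1))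

/-- **row 4** -/
theorem stmtSV : StmtSV := H934.stmtSV_of freeSq (D.H469.uv_of_u D.stmtU)

end Vale.Agent.P159.T1.S.H112
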