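import Vale.Agent.P159.T1.S.H459.VSq
import Vale.Agent.P159.T1.H910.RDefs
import Vale.Agent.P159.T1.H910.Far
import Vale.Agent.P159.T1.H532.QLim

/-!
P159, stage 2, the free square, part 3: the statements.
-/

open Filter Topology MeasureTheory

namespace Vale.Agent.P159.T1.S.H112

open Vale.Agent.P159 Vale.Agent.P159.T1.D Vale.Agent.P159.T1.H910.R
open Vale.Agent.P159.T1.H910 (FF prS)
open Vale.Agent.P159.T1.H532 (gn)
open Vale.Agent.P159.T1.S.H459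

/-- the rectangle with three sides at height zero and one wired side -/
def RL (b : ℝ) : Prop :=
  ∀ (W T : ℕ) (φ : ℝ × ℝ → ℝ), ContDiff ℝ 2 φ → HasCompactSupport φ →
    (∀ z ∈ tsupport φ, 0 < z.1 ∧ z.1 < W ∧ 0 < z.2 ∧ z.2 < T) →
    ∀ ε : ℝ, 0 < ε → ∀ᶠ k : ℕ in atTop,
      (helicity b * Dir φ - ε) *
          FF (J1 b (b / 2) (k * W)) (S1 (k * W) (k * T)) (rc (k * W) (k * T)) (fun _ => 1) ≤
        FF (J1 b (b / 2) (k * W)) (S1 (k * W) (k * T)) (rc (k * W) (k * T))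
          (fun h => prS (S1 (k * W) (k * T)) (dr (gn φ k)) h ^ 2)

/-- one test function in a strip -/
def StripIn (b : ℝ) : Prop :=
  ∃ C κ : ℝ, 0 < C ∧ 0 < κ ∧ ∀ φ : ℝ × ℝ → ℝ, ContDiff ℝ 2 φ → HasCompactSupport φ →
    ∀ W T m : ℕ, 1 ≤ W → 1 ≤ m → m ≤ T →
    (∀ z ∈ tsupport φ, 0 < z.1 ∧ z.1 < W ∧ 0 < z.2 ∧ z.2 < (T : ℝ) - m) →
    ∀ ε : ℝ, 0 < ε → ∃ k0 : ℕ, ∀ k ≥ k0, ∀ (u : Z2) (U : Finset Z2),
      (∀ f : Z2, 0 ≤ f.1 → f.1 < ((k * W : ℕ) : ℤ) → 0 ≤ f.2 → f.2 < ((k * T : ℕ) : ℤ) →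
        f + u ∈ U) →
      helicity b * Dir φ - C * (Dir φ + 1) * Real.exp (-(κ * m / W)) - ε ≤ Vr b U (dr (H459.sq φ k u))

/-- the free square, sides divisible by a number which depends on the test function -/
def FreeSqH (b : ℝ) : Prop :=
  ∀ ψ : ℝ × ℝ → ℝ, ContDiff ℝ 2 ψ → HasCompactSupport ψ → InSq ψ → ∀ ε : ℝ, 0 < ε →
    ∃ H : ℕ, 1 ≤ H ∧ ∃ k0 : ℕ, ∀ k ≥ k0, ∀ (u : Z2) (U : Finset Z2), Has U (H * k) u →
      helicity b * Dir ψ - ε ≤ Vr b U (dr (H459.sq ψ (H * k) u))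

end Vale.Agent.P159.T1.S.H112
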