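import Vale.Agent.P159.T1.S.H112.P3Defs
import Vale.Agent.P159.T1.H910.FarS
import Vale.Agent.P159.T1.H910.Sym

/-!
P159, stage 2, the free square, part 3: one test function in a thin strip.
-/

open Filter Topology MeasureTheory

namespace Vale.Agent.P159.T1.S.H112

open Vale.Agent.P159 Vale.Agent.P159.T1.D Vale.Agent.P159.T1.H910.R
open Vale.Agent.P159.T1.H910 (FF prS FF_pos Vr_mono Vr_symm isSym_tr trF)
open Vale.Agent.P159.T1.H532 (gn)
open Vale.Agent.P159.T1.H711 (en_le Dir_nonneg')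
open Vale.Agent.P159.T1.S.H459

lemma mem_bd_true {U : Finset Z2} {f : Z2} (h : f ∈ U) : (f, true) ∈ bd U := by
  refine Finset.mem_biUnion.2 ⟨f, h, ?_⟩
  simp [sides]

lemma S1_true {w T : ℕ} : ∀ f ∈ rc w T, (f, true) ∈ S1 w T := fun f hf =>
  Finset.mem_filter.2 ⟨mem_bd_true hf, fun h => by simp at h⟩

lemma gn_smp (φ : ℝ × ℝ → ℝ) (k : ℕ) : gn φ k = smp φ k 0 := by
  funext f
  simp [gn, smp]

/-- **one test function in a strip** -/
theorem stripIn_of {b : ℝ} (hb : 0 < b) (h : RL b) : StripIn b := by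
  obtain ⟨C, κ, hC, hκ, hfar⟩ := far_strip (b := b) (c := b / 2) (by linarith) (by linarith)
  refine ⟨C, κ, hC, hκ, ?_⟩
  intro φ h1 h2 W T m hW hm hmT h3 ε hε
  have hW0 : (0 : ℝ) < W := by exact_mod_cast hW
  have hm0 : (0 : ℝ) < m := by exact_mod_cast hm
  obtain ⟨k1, hk1⟩ := eventually_atTop.1 (h W T φ h1 h2 (fun z hz => by
    obtain ⟨a1, a2, a3, a4⟩ := h3 z hz
    exact ⟨a1, a2, a3, by linarith⟩) ε hε)
  obtain ⟨k2, hk2⟩ := en_le (h1.of_le (by norm_num)) h2 0 0 one_pos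
  refine ⟨k1 + k2 + 1, fun k hk v U hU => ?_⟩
  have hkp : 0 < k := by omega
  have hk0 : (0 : ℝ) < k := by exact_mod_cast hkp
  have a1 := hk1 k (by omega)
  have a2 := (hk2 k (by omega) (S1 (k * W) (k * T))).1
  have hsup : ∀ f : Z2, gn φ k f ≠ 0 → (0 ≤ f.1 ∧ f.1 < ((k * W : ℕ) : ℤ)) ∧
      0 ≤ f.2 ∧ f.2 < ((k * T : ℕ) : ℤ) - ((k * m : ℕ) : ℤ) := by
    intro f hne
    have hmem : (((f.1 : ℝ) / k, (f.2 : ℝ) / k) : ℝ × ℝ) ∈ tsupport φ :=
      subset_tsupport φ (Function.mem_support.2 hne)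
    obtain ⟨b1, b2, b3, b4⟩ := h3 _ hmem
    simp only at b1 b2 b3 b4
    have g1 : (f.1 : ℝ) / k * k = f.1 := div_mul_cancel₀ _ hk0.ne'
    have g2 : (f.2 : ℝ) / k * k = f.2 := div_mul_cancel₀ _ hk0.ne'
    have c1 : (0 : ℝ) ≤ f.1 := by
      rw [← g1]
      exact mul_nonneg b1.le hk0.le
    have c2 : (f.1 : ℝ) < k * W := by
      rw [← g1, mul_comm]
      exact mul_lt_mul_of_pos_left b2 hk0
    have c3 : (0 : ℝ) ≤ f.2 := by
      rw [← g2]
      exact mul_nonneg b3.le hk0.le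
    have c4 : (f.2 : ℝ) < k * T - k * m := by
      rw [← g2, mul_comm, ← mul_sub]
      exact mul_lt_mul_of_pos_left b4 hk0
    refine ⟨⟨by exact_mod_cast c1, ?_⟩, by exact_mod_cast c3, ?_⟩
    · push_cast
      exact_mod_cast c2
    · push_cast
      exact_mod_cast c4
  have a3 := hfar (k * m) (k * W) (k * T) (Nat.mul_pos hkp hm) (Nat.mul_pos hkp hW)
    (Nat.mul_le_mul_left k hmT) (gn φ k) (by
      intro f hf
      by_contra hne
      obtain ⟨b1, b2, b3⟩ := hsup f hne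
      refine hf ⟨mem_rc.2 ⟨b1, b2, ?_⟩, b3⟩
      have : (0 : ℤ) ≤ ((k * m : ℕ) : ℤ) := Int.natCast_nonneg _
      omega)
  have hZ : 0 < FF (J1 b (b / 2) (k * W)) (S1 (k * W) (k * T)) (rc (k * W) (k * T))
      (fun _ => 1) :=
    FF_pos (J1_nonneg hb.le (by linarith) _) S1_true (Finset.Subset.refl _)
  rw [← le_div_iff₀ hZ] at a1
  have a4 := a1.trans a3
  have ex : -(κ * ((k * m : ℕ) : ℝ) / ((k * W : ℕ) : ℝ)) = -(κ * m / W) := by
    push_cast
    field_simp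
  rw [ex, gn_smp] at a4
  have a5 : C * (∑ e ∈ S1 (k * W) (k * T), dr (smp φ k 0) e ^ 2) *
      Real.exp (-(κ * m / W)) ≤ C * (Dir φ + 1) * Real.exp (-(κ * m / W)) :=
    mul_le_mul_of_nonneg_right (mul_le_mul_of_nonneg_left a2 hC.le) (Real.exp_pos _).le
  have a6 : Vr b (rc (k * W) (k * T)) (dr (smp φ k 0)) ≤ Vr b U (dr (H459.sq φ k v)) := by
    have h5 : (rc (k * W) (k * T)).map (trF v).toEmbedding ⊆ U := by
      intro f hf
      rw [Finset.mem_map] at hf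
      obtain ⟨f', hf', rfl⟩ := hf
      obtain ⟨⟨b1, b2⟩, b3, b4⟩ := mem_rc.1 hf'
      exact hU f' b1 b2 b3 b4
    refine le_trans (le_of_eq ?_) (Vr_mono hb.le h5 _)
    rw [Vr_symm (isSym_tr v)]
    congr 2
    funext f
    show smp φ k 0 f = smp φ k 0 (f + v - v)
    rw [add_sub_cancel_right]
  linarith

end Vale.Agent.P159.T1.S.H112
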