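import Vale.Agent.P159.T1.S.H112.P3Defs
import Vale.Agent.P159.T1.S.H934.Cut

/-!
P159, stage 2, the free square, part 3: the pieces of a test function.
-/

open Filter Topology MeasureTheory

namespace Vale.Agent.P159.T1.S.H112

open Vale.Agent.P159 Vale.Agent.P159.T1.D
open Vale.Agent.P159.T1.S.H459
open Vale.Agent.P159.T1.S.H934 (cu cu_tele cu_nonneg cu_le_one cu_mem bu_nonneg bu_le_one
  bu_mem bu_contDiff bu_lip st_one st_zero)

/-- the piece `(i, j)` in the coordinates of its strip -/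
noncomputable def pc (ψ : ℝ × ℝ → ℝ) (H i j : ℕ) (z : ℝ × ℝ) : ℝ :=
  H934.bu (z.1 / 4, (z.2 - j) / 4) * ψ ((z.1 + i) / H, z.2 / H)

lemma pc_contDiff {ψ : ℝ × ℝ → ℝ} (h : ContDiff ℝ 2 ψ) (H i j : ℕ) :
    ContDiff ℝ 2 (pc ψ H i j) := by
  unfold pc
  refine ContDiff.mul (bu_contDiff.comp ?_) (h.comp ?_)
  · exact (contDiff_fst.div_const _).prodMk ((contDiff_snd.sub contDiff_const).div_const _)
  · exact ((contDiff_fst.add contDiff_const).div_const _).prodMk (contDiff_snd.div_const _)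

lemma pc_ne {ψ : ℝ × ℝ → ℝ} {H i j : ℕ} {z : ℝ × ℝ} (h : pc ψ H i j z ≠ 0) :
    (1 < z.1 ∧ z.1 < 3) ∧ ((j : ℝ) + 1 < z.2 ∧ z.2 < j + 3) := by
  obtain ⟨⟨h1, h2⟩, h3, h4⟩ := bu_mem (left_ne_zero_of_mul h)
  simp only at h1 h2 h3 h4
  refine ⟨⟨by linarith, by linarith⟩, by linarith, by linarith⟩

/-- the box which contains the support of the piece -/
def bo (j : ℕ) : Set (ℝ × ℝ) := Set.Icc (1 : ℝ) 3 ×ˢ Set.Icc ((j : ℝ) + 1) (j + 3)

lemma pc_box {ψ : ℝ × ℝ → ℝ} {H i j : ℕ} : tsupport (pc ψ H i j) ⊆ bo j := by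
  refine closure_minimal ?_ (isClosed_Icc.prod isClosed_Icc)
  intro z hz
  obtain ⟨⟨h1, h2⟩, h3, h4⟩ := pc_ne hz
  exact ⟨⟨h1.le, h2.le⟩, h3.le, h4.le⟩

lemma pc_compact (ψ : ℝ × ℝ → ℝ) (H i j : ℕ) : HasCompactSupport (pc ψ H i j) :=
  (isCompact_Icc.prod isCompact_Icc).of_isClosed_subset (isClosed_tsupport _) pc_box

lemma pc_tsupport {ψ : ℝ × ℝ → ℝ} {H i j : ℕ} {z : ℝ × ℝ} (hz : z ∈ tsupport (pc ψ H i j)) :
    (((z.1 + i) / H, z.2 / H) : ℝ × ℝ) ∈ tsupport ψ := by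
  have hcont : Continuous fun z : ℝ × ℝ => (((z.1 + i) / H, z.2 / H) : ℝ × ℝ) :=
    ((continuous_fst.add continuous_const).div_const _).prodMk (continuous_snd.div_const _)
  have hcl : IsClosed {z : ℝ × ℝ | (((z.1 + i) / H, z.2 / H) : ℝ × ℝ) ∈ tsupport ψ} :=
    (isClosed_tsupport ψ).preimage hcont
  refine closure_minimal ?_ hcl hz
  intro w hw
  exact subset_tsupport ψ (Function.mem_support.2 (right_ne_zero_of_mul hw))

/-! ### the energy of the pieces is bounded -/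

lemma Dir_le {φ : ℝ × ℝ → ℝ} {K : ℝ} (hK : 0 ≤ K) (hl : ∀ z w, |φ z - φ w| ≤ K * ‖z - w‖)
    {j : ℕ} (hs : tsupport φ ⊆ bo j) : Dir φ ≤ 8 * K ^ 2 := by
  have hfd : ∀ z, ‖fderiv ℝ φ z‖ ≤ K := fun z =>
    norm_fderiv_le_of_lip' ℝ hK (Eventually.of_forall fun w => by
      rw [Real.norm_eq_abs]
      exact hl w z)
  have hv : ∀ z (v : ℝ × ℝ), ‖v‖ ≤ 1 → (fderiv ℝ φ z v) ^ 2 ≤ K ^ 2 := by
    intro z v hv
    have h1 := (fderiv ℝ φ z).le_opNorm v
    have h2 : |fderiv ℝ φ z v| ≤ K := by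
      rw [← Real.norm_eq_abs]
      refine h1.trans ?_
      calc ‖fderiv ℝ φ z‖ * ‖v‖ ≤ K * 1 := mul_le_mul (hfd z) hv (norm_nonneg _) hK
        _ = K := mul_one K
    rw [← sq_abs]
    exact pow_le_pow_left₀ (abs_nonneg _) h2 2
  have hn1 : ‖((1 : ℝ), (0 : ℝ))‖ ≤ 1 := by simp [Prod.norm_def]
  have hn2 : ‖((0 : ℝ), (1 : ℝ))‖ ≤ 1 := by simp [Prod.norm_def]
  have hmeas : MeasurableSet (bo j) := measurableSet_Icc.prod measurableSet_Icc
  have hvol : (volume (bo j)) = ENNReal.ofReal 4 := by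
    unfold bo
    rw [Measure.volume_eq_prod, Measure.prod_prod, Real.volume_Icc, Real.volume_Icc,
      ← ENNReal.ofReal_mul (by norm_num)]
    congr 1
    ring
  have hle : ∀ z, (fderiv ℝ φ z (1, 0)) ^ 2 + (fderiv ℝ φ z (0, 1)) ^ 2 ≤
      (bo j).indicator (fun _ => 2 * K ^ 2) z := by
    intro z
    by_cases hz : z ∈ bo j
    · rw [Set.indicator_of_mem hz]
      have a1 := hv z _ hn1
      have a2 := hv z _ hn2
      linarith
    · rw [Set.indicator_of_notMem hz]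
      have h1 : fderiv ℝ φ z = 0 :=
        fderiv_of_notMem_tsupport (𝕜 := ℝ) fun h => hz (hs h)
      rw [h1]
      simp
  unfold Dir
  have hint : Integrable ((bo j).indicator (fun _ : ℝ × ℝ => 2 * K ^ 2)) volume := by
    rw [integrable_indicator_iff hmeas]
    exact integrableOn_const (by rw [hvol]; exact ENNReal.ofReal_ne_top)
  refine (integral_mono_of_nonneg (Eventually.of_forall fun z => ?_) hint
    (Eventually.of_forall hle)).trans ?_
  · exact add_nonneg (sq_nonneg _) (sq_nonneg _)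
  · rw [integral_indicator hmeas, setIntegral_const, Measure.real, hvol,
      ENNReal.toReal_ofReal (by norm_num), smul_eq_mul]
    linarith

/-- the pieces are uniformly Lipschitz -/
lemma pc_lip {ψ : ℝ × ℝ → ℝ} (h : ContDiff ℝ 2 ψ) (hc : HasCompactSupport ψ) :
    ∃ K : ℝ, 0 ≤ K ∧ ∀ (H i j : ℕ), 1 ≤ H → ∀ z w,
      |pc ψ H i j z - pc ψ H i j w| ≤ K * ‖z - w‖ := by
  obtain ⟨K1, hK1, hb1⟩ := bu_lip
  obtain ⟨K2, hK2⟩ := ContDiff.lipschitzWith_of_hasCompactSupport hc h (by norm_num)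
  obtain ⟨M, hM⟩ := h.continuous.bounded_above_of_compact_support hc
  have hM0 : 0 ≤ M := (norm_nonneg _).trans (hM 0)
  refine ⟨K1 * M + K2, by positivity, fun H i j hH z w => ?_⟩
  have hH' : (1 : ℝ) ≤ H := by exact_mod_cast hH
  have hH0 : (0 : ℝ) < H := by linarith
  have e1 : ‖((z.1 / 4, (z.2 - j) / 4) : ℝ × ℝ) - (w.1 / 4, (w.2 - j) / 4)‖ ≤ ‖z - w‖ := by
    rw [Prod.norm_def, Prod.norm_def]
    simp only [Prod.fst_sub, Prod.snd_sub, Real.norm_eq_abs]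
    refine max_le_max ?_ ?_
    · rw [show z.1 / 4 - w.1 / 4 = (z.1 - w.1) / 4 by ring, abs_div, abs_of_pos (by norm_num :
        (0 : ℝ) < 4)]
      linarith [abs_nonneg (z.1 - w.1)]
    · rw [show (z.2 - j) / 4 - (w.2 - j) / 4 = (z.2 - w.2) / 4 by ring, abs_div,
        abs_of_pos (by norm_num : (0 : ℝ) < 4)]
      linarith [abs_nonneg (z.2 - w.2)]
  have e2 : ‖(((z.1 + i) / H, z.2 / H) : ℝ × ℝ) - ((w.1 + i) / H, w.2 / H)‖ ≤ ‖z - w‖ := by
    rw [Prod.norm_def, Prod.norm_def]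
    simp only [Prod.fst_sub, Prod.snd_sub, Real.norm_eq_abs]
    refine max_le_max ?_ ?_
    · rw [show (z.1 + i) / H - (w.1 + i) / H = (z.1 - w.1) / H by ring, abs_div,
        abs_of_pos hH0]
      exact div_le_self (abs_nonneg _) hH'
    · rw [show z.2 / (H : ℝ) - w.2 / H = (z.2 - w.2) / H by ring, abs_div, abs_of_pos hH0]
      exact div_le_self (abs_nonneg _) hH'
  have e3 := hb1 (z.1 / 4, (z.2 - j) / 4) (w.1 / 4, (w.2 - j) / 4)
  have e4 := hK2.dist_le_mul ((z.1 + i) / H, z.2 / H) ((w.1 + i) / H, w.2 / H)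
  rw [Real.dist_eq, dist_eq_norm] at e4
  have e5 := hM ((z.1 + i) / H, z.2 / H)
  rw [Real.norm_eq_abs] at e5
  have e6 : |H934.bu (w.1 / 4, (w.2 - j) / 4)| ≤ 1 := by
    rw [abs_of_nonneg (bu_nonneg _)]
    exact bu_le_one _
  have e7 : pc ψ H i j z - pc ψ H i j w =
      (H934.bu (z.1 / 4, (z.2 - j) / 4) - H934.bu (w.1 / 4, (w.2 - j) / 4)) * ψ ((z.1 + i) / H, z.2 / H) +
      H934.bu (w.1 / 4, (w.2 - j) / 4) *
        (ψ ((z.1 + i) / H, z.2 / H) - ψ ((w.1 + i) / H, w.2 / H)) := by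
    unfold pc
    ring
  rw [e7]
  refine (abs_add_le _ _).trans ?_
  rw [abs_mul, abs_mul]
  have f1 : |H934.bu (z.1 / 4, (z.2 - j) / 4) - H934.bu (w.1 / 4, (w.2 - j) / 4)| *
      |ψ ((z.1 + i) / H, z.2 / H)| ≤ K1 * ‖z - w‖ * M :=
    mul_le_mul (e3.trans (mul_le_mul_of_nonneg_left e1 hK1.le)) e5 (abs_nonneg _) (by positivity)
  have f2 : |H934.bu (w.1 / 4, (w.2 - j) / 4)| *
      |ψ ((z.1 + i) / H, z.2 / H) - ψ ((w.1 + i) / H, w.2 / H)| ≤ 1 * (K2 * ‖z - w‖) :=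
    mul_le_mul e6 (e4.trans (mul_le_mul_of_nonneg_left e2 K2.2)) (abs_nonneg _) zero_le_one
  calc _ ≤ K1 * ‖z - w‖ * M + 1 * (K2 * ‖z - w‖) := add_le_add f1 f2
    _ = (K1 * M + K2) * ‖z - w‖ := by ring

lemma pc_Dir {ψ : ℝ × ℝ → ℝ} (h : ContDiff ℝ 2 ψ) (hc : HasCompactSupport ψ) :
    ∃ K : ℝ, 0 ≤ K ∧ ∀ (H i j : ℕ), 1 ≤ H → Dir (pc ψ H i j) ≤ K := by
  obtain ⟨K, hK, hl⟩ := pc_lip h hc
  exact ⟨8 * K ^ 2, by positivity, fun H i j hH => Dir_le hK (hl H i j hH) pc_box⟩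

/-! ### the sum of the pieces -/

lemma cu_one {x : ℝ} {n : ℕ} (h1 : 2 ≤ x) (h2 : x ≤ n + 1) :
    ∑ i ∈ Finset.range n, cu ((x - i) / 4) = 1 := by
  have h3 := cu_tele (x / 4) n
  rw [st_one (by linarith), st_zero (by linarith), sub_zero] at h3
  rw [← h3]
  exact Finset.sum_congr rfl fun i _ => by congr 1; ring

/-- the support of the test function has distance `1 / D` from the boundary of the square -/
lemma room {ψ : ℝ × ℝ → ℝ} (hc : HasCompactSupport ψ) (h : InSq ψ) :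
    ∃ D : ℕ, 1 ≤ D ∧ ∀ z ∈ tsupport ψ, (1 / (D : ℝ) ≤ z.1 ∧ z.1 ≤ 1 - 1 / D) ∧
      1 / (D : ℝ) ≤ z.2 ∧ z.2 ≤ 1 - 1 / D := by
  rcases (tsupport ψ).eq_empty_or_nonempty with h0 | hne
  · exact ⟨1, le_rfl, fun z hz => by rw [h0] at hz; exact absurd hz (Set.notMem_empty z)⟩
  · have hcont : Continuous fun z : ℝ × ℝ => min (min z.1 (1 - z.1)) (min z.2 (1 - z.2)) := by
      fun_prop
    obtain ⟨z0, hz0, hmin⟩ := (hc : IsCompact (tsupport ψ)).exists_isMinOn hne hcont.continuousOn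
    set d : ℝ := min (min z0.1 (1 - z0.1)) (min z0.2 (1 - z0.2)) with hd
    obtain ⟨a1, a2, a3, a4⟩ := h z0 hz0
    have hd0 : 0 < d := lt_min (lt_min a1 (by linarith)) (lt_min a3 (by linarith))
    obtain ⟨D, hD⟩ := exists_nat_gt (1 / d)
    have hD0 : (0 : ℝ) < D := lt_trans (by positivity) hD
    have hD1 : 1 / (D : ℝ) ≤ d := by
      rw [div_le_iff₀ hD0]
      have := mul_lt_mul_of_pos_left hD hd0
      rw [mul_one_div_cancel hd0.ne'] at this
      exact this.le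
    refine ⟨D, by exact_mod_cast hD0, fun z hz => ?_⟩
    have h1 : d ≤ min (min z.1 (1 - z.1)) (min z.2 (1 - z.2)) := hmin hz
    have h2 := h1.trans (min_le_left _ _)
    have h3 := h1.trans (min_le_right _ _)
    have g1 := h2.trans (min_le_left _ _)
    have g2 := h2.trans (min_le_right _ _)
    have g3 := h3.trans (min_le_left _ _)
    have g4 := h3.trans (min_le_right _ _)
    exact ⟨⟨by linarith, by linarith⟩, by linarith, by linarith⟩

/-- the corner of the strip of a piece -/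
def vp (u : Z2) (k i : ℕ) : Z2 := (u.1 + ((k * i : ℕ) : ℤ), u.2)

/-- the test function is the sum of its pieces -/
lemma sq_pc {ψ : ℝ × ℝ → ℝ} {D A H k : ℕ} (hD : 1 ≤ D) (hA : 2 ≤ A) (hH : H = D * A)
    (hk : 1 ≤ k) (hd : ∀ z ∈ tsupport ψ, (1 / (D : ℝ) ≤ z.1 ∧ z.1 ≤ 1 - 1 / D) ∧
      1 / (D : ℝ) ≤ z.2 ∧ z.2 ≤ 1 - 1 / D) (u f : Z2) :
    H459.sq ψ (H * k) u f = ∑ p ∈ Finset.range H ×ˢ Finset.range H,
      H459.sq (pc ψ H p.1 p.2) k (vp u k p.1) f := by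
  have hk0 : (0 : ℝ) < k := by exact_mod_cast hk
  have hD0 : (0 : ℝ) < D := by exact_mod_cast hD
  have hA2 : (2 : ℝ) ≤ A := by exact_mod_cast hA
  have hHr : (H : ℝ) = D * A := by rw [hH]; push_cast; ring
  have hH0 : (0 : ℝ) < H := by rw [hHr]; positivity
  set x : ℝ := ((f - u).1 : ℝ) / k with hx
  set y : ℝ := ((f - u).2 : ℝ) / k with hy
  have e1 : H459.sq ψ (H * k) u f = ψ (x / H, y / H) := by
    unfold H459.sq smp
    congr 1
    rw [hx, hy]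
    refine Prod.ext ?_ ?_
    · simp only [Prod.fst_zero, add_zero]
      push_cast
      rw [div_div, mul_comm (k : ℝ)]
    · simp only [Prod.snd_zero, add_zero]
      push_cast
      rw [div_div, mul_comm (k : ℝ)]
  have e2 : ∀ p : ℕ × ℕ, H459.sq (pc ψ H p.1 p.2) k (vp u k p.1) f =
      cu ((x - p.1) / 4) * cu ((y - p.2) / 4) * ψ (x / H, y / H) := by
    intro p
    have g1 : (((f - vp u k p.1).1 : ℤ) : ℝ) / k = x - p.1 := by
      rw [hx]
      show (((f.1 - (u.1 + ((k * p.1 : ℕ) : ℤ)) : ℤ)) : ℝ) / k = _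
      push_cast [Prod.fst_sub]
      field_simp
      ring
    have g2 : (((f - vp u k p.1).2 : ℤ) : ℝ) / k = y := rfl
    unfold H459.sq smp pc H934.bu
    simp only [Prod.fst_zero, Prod.snd_zero, add_zero]
    rw [g1, g2]
    simp only [sub_add_cancel]
  rw [e1, Finset.sum_congr rfl fun p _ => e2 p, ← Finset.sum_mul, Finset.sum_product]
  simp only [← Finset.mul_sum]
  by_cases h0 : ψ (x / H, y / H) = 0
  · rw [h0, mul_zero]
  · obtain ⟨⟨b1, b2⟩, b3, b4⟩ := hd _ (subset_tsupport ψ (Function.mem_support.2 h0))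
    simp only at b1 b2 b3 b4
    have key : ∀ s : ℝ, 1 / (D : ℝ) ≤ s / H → s / H ≤ 1 - 1 / D → 2 ≤ s ∧ s ≤ H + 1 := by
      intro s h1 h2
      rw [div_le_div_iff₀ hD0 hH0, hHr] at h1
      have h3 : (2 : ℝ) ≤ s := by
        have : (A : ℝ) ≤ s := by
          have h4 : (D : ℝ) * A ≤ D * s := by linarith
          exact le_of_mul_le_mul_left h4 hD0
        linarith
      have h5 : s / H ≤ 1 := by
        have : 0 < 1 / (D : ℝ) := by positivity
        linarith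
      rw [div_le_one hH0] at h5
      exact ⟨h3, by linarith⟩
    obtain ⟨c1, c2⟩ := key x b1 b2
    obtain ⟨c3, c4⟩ := key y b3 b4
    rw [cu_one c3 c4]
    simp only [mul_one]
    rw [cu_one c1 c2, one_mul]

end Vale.Agent.P159.T1.S.H112
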